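import Vale.Agent.P235.R2.H802.PgMain

/-! P235: planar metrics with few uncovered maxima embed into `L₁` with distortion
`O(log log n + √log b)`. -/

namespace Vale.Agent.Results.P235.PlanarFewMaxima

open Vale.Agent.P235 Vale.Agent.P235.Pg

/-- There is an absolute constant `C` such that for all finite connected graphs `G` with positive
edge lengths `ℓ` and all `D ≥ 1`, with `d` the shortest-path metric and
`LL n = 1 + log₂ (1 + log₂ n)`:
(1) `d` on `L ⊆ V` embeds into `L₁` with distortion
`≤ C D (LL(|V|) + log (1 + p (a + 1)) + √log (a + b + 2))`, if `G` has a rotation system of Euler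
genus `≤ p` and some `h : V → ℝ`, nonexpansive on `L`, has at every vertex of `L` an edge of slope
`≥ 1/D` downwards which ends in `L`, except at `a₁` vertices and at the vertices of `a₂` faces, and
one upwards, except at `b₁` vertices and at the vertices of `b₂` faces; `a₁ + a₂ ≤ a`,
`b₁ + b₂ ≤ b`, no face is exceptional twice. Examples, for every plane `G` and every `ℓ`:
`h = d(r, ·)`, `D = a = 1`, `L` = all vertices on shortest paths from `r` to `b` vertices and faces;
`L = V`, `b` = the number of vertices `v` without a neighbour `u` with `d(r, u) = d(r, v) + ℓ(vu)`;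
(2) `d` embeds with distortion `≤ C (D (LL(|V|) + √log (m + 2)) + B)`, if `G` is plane, `d` on `E`
embeds with distortion `≤ B`, `E` is the union of `k` sets which induce connected subgraphs, and
some nonexpansive `h` has at every vertex outside `E` an edge of slope `≥ 1/D` upwards, except on
`A'`, and one downwards which ends outside `E`, except on `A`; `|A| + |A'| + k ≤ m` (`h` may have
any number of local maxima in `E`);
(3) if `G` has no `K_r` minor and `d` on each of `m` sets embeds with distortion `≤ B`, then `d` on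
the union of these sets embeds with distortion `≤ C (r + 2)^3 B log (m + 2)`;
(4) `d` embeds with distortion `≤ C (Q + √k log (s + 2) + j (g + 1) + β)`, if `k` rounds which
delete `s` lanes, `j` rounds which delete a face (Euler genus `g`) and any number of rounds which
delete, from a graph without a `K_r` minor, a set on which the metric has distortion `≤ B`
(`r` and `B` may vary, `β` bounds the sum of `(r + 2)^3 B`) lead to graphs of distortion at most `Q`
(known: one round which deletes one set). -/
theorem result : ∃ C : ℝ, 1 ≤ C ∧ ∀ (V : Type) [Finite V] (G : SimpleGraph V) (ℓ : Sym2 V → ℝ)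
    (D : ℝ), G.Connected → (∀ e ∈ G.edgeSet, 0 < ℓ e) → 1 ≤ D →
    (∀ (L : Set V) (p a b : ℕ), OnSurface G ℓ D L p a b →
      EmbedsL1 (fun u v : L => pathDist G ℓ u v) (C * D * (Swp.LL (Nat.card V) +
        Real.log (1 + (p : ℝ) * ((a : ℝ) + 1)) + √(Real.log ((a : ℝ) + b + 2))))) ∧
    (∀ (E : Set V) (m : ℕ) (B : ℝ), 1 ≤ B → Ridges G ℓ D m E →
      EmbedsL1 (fun u v : E => pathDist G ℓ u v) B → EmbedsL1 (pathDist G ℓ)
        (C * (D * (Swp.LL (Nat.card V) + √(Real.log ((m : ℝ) + 2))) + B))) ∧
    (∀ (r m : ℕ) (L : Fin m → Set V) (B : ℝ), ¬ H134.IsMinor (⊤ : SimpleGraph (Fin r)) G →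
      1 ≤ B → (∀ i, EmbedsL1 (fun u v : L i => pathDist G ℓ u v) B) →
      EmbedsL1 (fun u v : (⋃ i, L i : Set V) => pathDist G ℓ u v)
        (C * ((r : ℝ) + 2) ^ 3 * B * Real.log ((m : ℝ) + 2))) ∧
    (∀ (Q β : ℝ) (s g k j : ℕ), 1 ≤ Q → 0 ≤ β → Rounds Q s g k j β G ℓ →
      EmbedsL1 (pathDist G ℓ)
        (C * (Q + √(k : ℝ) * Real.log ((s : ℝ) + 2) + j * ((g : ℝ) + 1) + β))) :=
  main

end Vale.Agent.Results.P235.PlanarFewMaxima
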