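import Vale.Agent.P235.R2.H680.Graph

namespace Vale.Agent.Results.P235.PlanarLower

open Vale.Agent.P235 Vale.Agent.P235.R2.H680

/-- The constant of planar graphs is larger than two: there is a finite connected planar graph of
treewidth at most three with `c₁(G) > 2.006` (`DistortionLE G C` is `c₁(G) ≤ C`, and
`PlaneMap G σ` says that `σ` is a plane rotation system of `G`). -/
theorem result : ∃ (V : Type) (_ : Finite V) (G : SimpleGraph V),
    G.Connected ∧ (∃ σ : Equiv.Perm G.Dart, PlaneMap G σ) ∧ TreewidthLE G 3 ∧
      ¬ DistortionLE G 2.006 := by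
  by_contra h
  push Not at h
  exact gadget (by norm_num) le_rfl (hypP (by norm_num) fun V _ G h1 h2 h3 =>
    h V inferInstance G h1 h2 h3)

end Vale.Agent.Results.P235.PlanarLower
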