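import Vale.Agent.P235.R2.RED.CoverE
import Vale.Agent.P235.R2.H882.MStar

/-! P235: path metrics swept by (quasi-)geodesics embed into `L₁` with distortion
`O(log log n)`. -/

namespace Vale.Agent.Results.P235.StPlanarLogLog

open Vale.Agent.P235 Vale.Agent.P235.Swp

theorem mStarLL : Red.MStarLL 228352 := H882.mStar

/-- There is an absolute constant `C` such that for all finite connected graphs `G` with positive
edge lengths `ℓ` and all `D ≥ 1`, with `d` the shortest-path metric and
`LL n = 1 + log₂ (1 + log₂ n)`:
(1) `d` embeds into `L₁` with distortion `≤ C D (q + 1) LL(N)`, if `G` has a tree decomposition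
with bags `B 0, …, B N` of any size, its tree made of paths hung on paths, on levels `0, …, q`
(`q = 0`: a path decomposition), such that all bags are isometric (for `d`) to subsets of the real
line (then take `D = 1`), or some `h : V → ℝ` satisfies `|h x - h y| ≤ d(x, y) ≤ D |h x - h y|` for
all `x`, `y` in a common bag;
(2) `d` on `L ⊆ V` embeds with distortion `≤ C D log(m + 2) LL(|V|)`, if `G` is plane and `L` is
covered by `m + 1` sets `M` of vertices such that some function `h` which is nonexpansive on `M` has at
every vertex of `M` outside the end `B₁` an edge inside `M` of slope `≥ 1/D` downwards, and outside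
the end `B₂` one upwards (every `M` with its own `h`, `B₁`, `B₂`); an end is one vertex or the set
of vertices of one face (not the same face twice); nothing is assumed about the other vertices and
edges; for example, for an arbitrary plane `G` with arbitrary `ℓ`: `L` = all vertices on shortest
`s i`-`t i` paths, `i = 0, …, m`;
(3) `d` embeds with distortion `≤ C D (q + log(m + 2)) LL(n)`, if `(G, d)` arises by gluing at vertices
from pieces as in (1), (2) (with `L = V`) with `N ≤ n`, `|V| ≤ n`, and from pieces which arise by gluing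
along (real or virtual) edges from tight pieces: as in (1) with all bags isometric to subsets of the
real line; plane with every edge on an `s`-`t` geodesic, `s` and `t` on one face; isometric to a
subset of `L₁`; of treewidth at most `3`. -/
theorem result : ∃ C : ℝ, 1 ≤ C ∧ ∀ (V : Type) [Finite V] (G : SimpleGraph V) (ℓ : Sym2 V → ℝ)
    (D : ℝ), G.Connected → (∀ e ∈ G.edgeSet, 0 < ℓ e) → 1 ≤ D →
    (∀ N q, H37T.TreeBags G (pathDist G ℓ) D N q →
      EmbedsL1 (pathDist G ℓ) (C * D * (q + 1) * LL N)) ∧
    (∀ (L : Set V) (m : ℕ), Cov.Covered G ℓ D m L →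
      EmbedsL1 (fun u v : L => pathDist G ℓ u v)
        (C * D * Real.log ((m : ℝ) + 2) * LL (Nat.card V))) ∧
    (∀ (G' : SimpleGraph V) (n q m : ℕ), G ≤ G' →
      VertexSum (Cov.Piece n q m D) G' (pathDist G ℓ) →
      EmbedsL1 (pathDist G ℓ) (C * D * ((q : ℝ) + Real.log ((m : ℝ) + 2)) * LL n)) := by
  obtain ⟨A, hA, hcov⟩ := Cov.covered
  obtain ⟨A', hA', hsum⟩ := Cov.sums
  refine ⟨(A + A' + 96) * 228352, by nlinarith, ?_⟩
  intro V _ G ℓ D hc hℓ hD
  have hC : (1 : ℝ) ≤ 228352 := by norm_num
  have hD0 : 0 ≤ D := by linarith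
  refine ⟨fun N q h => up hℓ (h.embeds hC mStarLL hc hℓ hD) ?_,
    fun L m h => upL hℓ (hcov _ hC mStarLL D hD V G ℓ hc hℓ m L h) ?_,
    fun G' n q m hle h => up hℓ (hsum _ hC mStarLL D hD n q m V G G' ℓ hc hℓ hle h) ?_⟩
  · have hq : (0 : ℝ) ≤ (q : ℝ) + 1 := by positivity
    rw [← LL_eq]
    exact mul_le_mul_of_nonneg_right (mul_le_mul_of_nonneg_right
      (mul_le_mul_of_nonneg_right (by nlinarith) hD0) hq) (LL_nonneg _)
  · have hm : (0 : ℝ) ≤ Real.log ((m : ℝ) + 2) := by have := Cov.log_half m; linarith
    exact mul_le_mul_of_nonneg_right (mul_le_mul_of_nonneg_right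
      (mul_le_mul_of_nonneg_right (by nlinarith) hD0) hm) (LL_nonneg _)
  · have hm : (0 : ℝ) ≤ (q : ℝ) + Real.log ((m : ℝ) + 2) := by
      have := Cov.log_half m
      have hq : (0 : ℝ) ≤ (q : ℝ) := Nat.cast_nonneg _
      linarith
    exact mul_le_mul_of_nonneg_right (mul_le_mul_of_nonneg_right
      (mul_le_mul_of_nonneg_right (by nlinarith) hD0) hm) (LL_nonneg _)

end Vale.Agent.Results.P235.StPlanarLogLog
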