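import Vale.Agent.P235.R2.H483.Final
import Vale.Agent.P235.R2.H483.Minor
import Vale.Agent.P235.R2.H483U.Final
import Vale.Agent.P235.R2.H483U.Grid

namespace Vale.Agent.Results.P235.TreewidthExp

open Vale.Agent.P235 Vale.Agent.P235.H134

/-- Exponential lower bounds, and explicit upper bounds for treewidth `k` and for graphs without a
grid minor. (1) For every `n`, every real `D` with `1 ≤ D < fib n` (the `n`-th Fibonacci number)
and every `k ≥ 2 n + 3` there is a finite connected graph of treewidth at most `k`, without a minor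
`K_{k+2}`, some path metric of which does not embed into `L₁` with distortion `D`. (2) The same for
every `k` and every `D` with `1 ≤ D < (5/4)^k / 7`. (3) If `C ≥ 1` is a constant with `c₁(G) ≤ C`
for all finite connected graphs `G` without a minor `K_r`, then `C ≥ (5/4)^(r-2) / 7`. (4) For
every `k`, every finite connected graph `G` of treewidth at most `k` has
`c₁(G) ≤ 2 ^ (600 (k+1)^9 + 12 * 2^k)`. (5) For every `r`, every finite connected graph `G` without
the `r × r` grid as a minor has `c₁(G) ≤ 2 ^ (2 ^ (r ^ (21 r^5)))`. -/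
theorem result :
    (∀ (n k : ℕ) (D : ℝ), 1 ≤ D → D < Nat.fib n → 2 * n + 3 ≤ k →
      ∃ (V : Type) (_ : Finite V) (G : SimpleGraph V),
        G.Connected ∧ TreewidthLE G k ∧ ¬ IsMinor (⊤ : SimpleGraph (Fin (k + 2))) G ∧
          ¬ DistortionLE G D) ∧
    (∀ (k : ℕ) (D : ℝ), 1 ≤ D → D < (5 / 4) ^ k / 7 →
      ∃ (V : Type) (_ : Finite V) (G : SimpleGraph V),
        G.Connected ∧ TreewidthLE G k ∧ ¬ IsMinor (⊤ : SimpleGraph (Fin (k + 2))) G ∧
          ¬ DistortionLE G D) ∧
    (∀ (r : ℕ) (C : ℝ), 1 ≤ C →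
      (∀ (V : Type) [Finite V] (G : SimpleGraph V), G.Connected →
        ¬ IsMinor (⊤ : SimpleGraph (Fin r)) G → DistortionLE G C) →
      (5 / 4) ^ (r - 2) / 7 ≤ C) ∧
    (∀ (k : ℕ) (V : Type) [Finite V] (G : SimpleGraph V), G.Connected → TreewidthLE G k →
      DistortionLE G (2 ^ (600 * (k + 1) ^ 9 + 12 * 2 ^ k))) ∧
    (∀ (r : ℕ) (V : Type) [Finite V] (G : SimpleGraph V), G.Connected → ¬ IsMinor (grid r) G →
      DistortionLE G (2 ^ (2 ^ (r ^ (21 * r ^ 5))))) := by
  have h1 : ∀ (n k : ℕ) (D : ℝ), 1 ≤ D → D < Nat.fib n → 2 * n + 3 ≤ k →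
      ∃ (V : Type) (_ : Finite V) (G : SimpleGraph V),
        G.Connected ∧ TreewidthLE G k ∧ ¬ IsMinor (⊤ : SimpleGraph (Fin (k + 2))) G ∧
          ¬ DistortionLE G D := by
    intro n k D hD hn hk
    by_contra h
    push Not at h
    exact R2.H483.fib_lower (by linarith) hn hk fun V _ G h1 h2 =>
      h V inferInstance G h1 h2 (R2.H483.no_minor h2 le_rfl)
  have h2 : ∀ (k : ℕ) (D : ℝ), 1 ≤ D → D < (5 / 4) ^ k / 7 →
      ∃ (V : Type) (_ : Finite V) (G : SimpleGraph V),
        G.Connected ∧ TreewidthLE G k ∧ ¬ IsMinor (⊤ : SimpleGraph (Fin (k + 2))) G ∧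
          ¬ DistortionLE G D := by
    intro k D hD hk
    by_contra h
    push Not at h
    exact R2.H483.exp_lower hD hk fun V _ G h1 h2 =>
      h V inferInstance G h1 h2 (R2.H483.no_minor h2 le_rfl)
  refine ⟨h1, h2, fun r C hC h => ?_, fun k V _ G hG hk => H483U.tw_explicit k V G hG hk,
    fun r V _ G hG hn => H483U.gridfree_explicit r V G hG hn⟩
  by_contra hlt
  push Not at hlt
  obtain ⟨V, hV, G, h3, h4, h5, h6⟩ := h2 (r - 2) C hC hlt
  refine h6 (h V G h3 fun hm => ?_)
  rcases Nat.lt_or_ge r 2 with hr | hr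
  · have h7 : r - 2 = 0 := by omega
    rw [h7] at hlt
    norm_num at hlt
    linarith
  · exact R2.H483.no_minor h4 (by omega) hm

end Vale.Agent.Results.P235.TreewidthExp
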